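import Mathlib
import Vale.Agent.P043.T2.Defs

/-! # P043 FIN: matching and glue (helper31) -/

namespace Vale.Agent.P043.T2.H31

/-- Matching of two families with equal fibre cardinalities. -/
theorem matching {P Q CP CQ : Type} [DecidableEq P] [DecidableEq Q]
    [DecidableEq CP] [DecidableEq CQ] (cP : P → CP) (cQ : Q → CQ)
    (D : CQ → Finset P) (B : CP → Finset Q)
    (hcard : ∀ C L, ((D L).filter (fun p => cP p = C)).card =
      ((B C).filter (fun q => cQ q = L)).card) :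
    ∃ M : P → Q → Prop,
      (∀ p q, M p q → p ∈ D (cQ q) ∧ q ∈ B (cP p)) ∧
      (∀ L, ∀ p ∈ D L, ∃! q, cQ q = L ∧ M p q) ∧
      (∀ C, ∀ q ∈ B C, ∃! p, cP p = C ∧ M p q) := by
  classical
  let e : ∀ C L, {x // x ∈ (D L).filter (fun p => cP p = C)} ≃
      {y // y ∈ (B C).filter (fun q => cQ q = L)} :=
    fun C L => Finset.equivOfCardEq (hcard C L)
  refine ⟨fun p q => ∃ hp : p ∈ (D (cQ q)).filter (fun p' => cP p' = cP p),
    ((e (cP p) (cQ q)) ⟨p, hp⟩ : Q) = q, ?_, ?_, ?_⟩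
  · rintro p q ⟨hp, h⟩
    refine ⟨(Finset.mem_filter.1 hp).1, ?_⟩
    have := ((e (cP p) (cQ q)) ⟨p, hp⟩).2
    rw [h] at this
    exact (Finset.mem_filter.1 this).1
  · intro L p hp
    have hp' : p ∈ (D L).filter (fun p' => cP p' = cP p) :=
      Finset.mem_filter.2 ⟨hp, rfl⟩
    have hq := ((e (cP p) L) ⟨p, hp'⟩).2
    have hcq := (Finset.mem_filter.1 hq).2
    refine ⟨((e (cP p) L) ⟨p, hp'⟩ : Q), ⟨hcq, ?_⟩, ?_⟩
    · have key : ∀ L', L' = L → ∃ hp2 : p ∈ (D L').filter (fun p' => cP p' = cP p),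
          ((e (cP p) L') ⟨p, hp2⟩ : Q) = ((e (cP p) L) ⟨p, hp'⟩ : Q) := by
        intro L' h
        subst h
        exact ⟨hp', rfl⟩
      exact key _ hcq
    · rintro q ⟨h1, hp2, h2⟩
      subst h1
      exact h2.symm
  · intro C q hq
    have hq' : q ∈ (B C).filter (fun q' => cQ q' = cQ q) :=
      Finset.mem_filter.2 ⟨hq, rfl⟩
    have hp := ((e C (cQ q)).symm ⟨q, hq'⟩).2
    have hcp := (Finset.mem_filter.1 hp).2
    refine ⟨((e C (cQ q)).symm ⟨q, hq'⟩ : P), ⟨hcp, ?_⟩, ?_⟩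
    · have key : ∀ C', C' = C → ∃ hp2 : ((e C (cQ q)).symm ⟨q, hq'⟩ : P) ∈
          (D (cQ q)).filter (fun p' => cP p' = C'),
          ((e C' (cQ q)) ⟨((e C (cQ q)).symm ⟨q, hq'⟩ : P), hp2⟩ : Q) = q := by
        intro C' h
        subst h
        refine ⟨hp, ?_⟩
        have : (⟨((e C' (cQ q)).symm ⟨q, hq'⟩ : P), hp⟩ :
          {x // x ∈ (D (cQ q)).filter (fun p => cP p = C')}) = (e C' (cQ q)).symm ⟨q, hq'⟩ :=
          Subtype.ext rfl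
        rw [this, Equiv.apply_symm_apply]
      exact key _ hcp
    · rintro p ⟨h1, hp2, h2⟩
      subst h1
      have : (e (cP p) (cQ q)) ⟨p, hp2⟩ = ⟨q, hq'⟩ := Subtype.ext h2
      rw [← this, Equiv.symm_apply_apply]

/-- Glue: the index pair `(j1, j2)`, first `j1` by the `D`-family, then `j2` by the matching. -/
theorem glue {P Q CQ J1 J2 : Type} (cQ : Q → CQ) (M : J1 → P → Q → Prop)
    (D : J1 → CQ → P → Prop) (pp : J1 → P) (qq : J2 → Q) (L : CQ)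
    (hc : ∀ j2, cQ (qq j2) = L) (hs : ∀ q', cQ q' = L → ∃! j2, qq j2 = q')
    (hM1 : ∀ j1 q', M j1 (pp j1) q' → D j1 (cQ q') (pp j1))
    (hM2 : ∀ j1, D j1 L (pp j1) → ∃! q', cQ q' = L ∧ M j1 (pp j1) q')
    (hD : ∃! j1, D j1 L (pp j1)) :
    ∃! jj : J1 × J2, M jj.1 (pp jj.1) (qq jj.2) := by
  obtain ⟨j1, hj1, hu1⟩ := hD
  obtain ⟨q', ⟨hq1, hq2⟩, hqu⟩ := hM2 j1 hj1
  obtain ⟨j2, hj2, hu2⟩ := hs q' hq1
  refine ⟨(j1, j2), ?_, ?_⟩
  · show M j1 (pp j1) (qq j2)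
    rw [hj2]
    exact hq2
  · rintro ⟨a, b⟩ h
    have h' : M a (pp a) (qq b) := h
    have ha : a = j1 := by
      apply hu1
      have := hM1 a (qq b) h'
      rwa [hc] at this
    subst ha
    have hb : qq b = q' := hqu _ ⟨hc b, h'⟩
    have : b = j2 := hu2 b hb
    rw [this]

theorem glue_no {P Q CQ J1 J2 : Type} (cQ : Q → CQ) (M : J1 → P → Q → Prop)
    (D : J1 → CQ → P → Prop) (pp : J1 → P) (qq : J2 → Q) (L : CQ)
    (hc : ∀ j2, cQ (qq j2) = L)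
    (hM1 : ∀ j1 q', M j1 (pp j1) q' → D j1 (cQ q') (pp j1))
    (hD : ∀ j1, ¬ D j1 L (pp j1)) (j1 : J1) (j2 : J2) : ¬ M j1 (pp j1) (qq j2) := by
  intro h
  have := hM1 j1 _ h
  rw [hc] at this
  exact hD j1 this

/-- regroup the index -/
theorem reg {R : Fin 2 → Fin 3 → Fin 5 → Fin 7 → Prop}
    (h : ∃! jj : (Fin 2 × Fin 3) × (Fin 5 × Fin 7), R jj.1.1 jj.1.2 jj.2.1 jj.2.2) :
    ∃! i : Ix, R i.1 i.2.1 i.2.2.1 i.2.2.2 := by
  obtain ⟨⟨⟨a, b⟩, c, d⟩, h1, h2⟩ := h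
  refine ⟨(a, b, c, d), h1, ?_⟩
  rintro ⟨a', b', c', d'⟩ h'
  have := h2 ((a', b'), (c', d')) h'
  simp only [Prod.mk.injEq] at this ⊢
  tauto

end Vale.Agent.P043.T2.H31
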