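import Mathlib
import Vale.Agent.P043.T2.Defs
import Vale.Agent.P043.T2.H31.FinGlue
import Vale.Agent.P043.T2.H31.FinTab

/-! # P043 FIN: the finite gadget (helper31) -/

namespace Vale.Agent.P043.T2.H31

open Finset

theorem exu_of_card {α : Type} [Fintype α] (p : α → Prop) [DecidablePred p]
    (h : (univ.filter p).card = 1) : ∃! x, p x := by
  obtain ⟨a, ha⟩ := Finset.card_eq_one.1 h
  have hm : ∀ x, p x ↔ x = a := fun x => by
    have := Finset.ext_iff.1 ha x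
    simpa using this
  exact ⟨a, (hm a).2 rfl, fun y hy => (hm y).1 hy⟩

theorem no_of_card {α : Type} [Fintype α] (p : α → Prop) [DecidablePred p]
    (h : (univ.filter p).card = 0) (x : α) : ¬ p x := by
  intro hx
  have := Finset.card_eq_zero.1 h
  have hm : x ∈ univ.filter p := by simp [hx]
  rw [this] at hm
  simp at hm

theorem cardD0 (h : ZMod 9) (L : Fin 5 × Fin 7) (C : Fin 2 × Fin 3) :
    ((D0 h L).filter (fun p => cP p = C)).card = k0 (kd L) C := by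
  rw [D0, Finset.filter_filter]
  exact card_d0 ⟨kd L, kd_lt L⟩ h C

theorem cardD1 (h : ZMod 4) (L : Fin 5 × Fin 7) (C : Fin 2 × Fin 3) :
    ((D1 h L).filter (fun p => cP p = C)).card = k1 (kd L) C := by
  rw [D1, Finset.filter_filter]
  exact card_d1 ⟨kd L, kd_lt L⟩ h C

theorem cardB0 (h : ZMod 49) (C : Fin 2 × Fin 3) (L : Fin 5 × Fin 7) :
    ((B0 h C).filter (fun q => cQ q = L)).card = k0 (kd L) C := by
  rw [← cnt0 C L]
  refine Finset.card_bij'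
    (fun q _ => ((⟨(h - q.2).val / 7, by
        have := ZMod.val_lt (h - q.2); omega⟩ : Fin 7), (⟨q.1.val / 5, by
        have := ZMod.val_lt q.1; omega⟩ : Fin 5)))
    (fun fs _ => (((L.1.val + 5 * fs.2.val : ℕ) : ZMod 25), inv49 h fs.1.val L.2.val)) ?_ ?_ ?_ ?_
  · rintro q hq
    simp only [B0, Finset.mem_filter, Finset.mem_univ, true_and] at hq ⊢
    obtain ⟨⟨h1, h2, h3⟩, h4⟩ := hq
    subst h4
    refine ⟨h1, ?_, ?_⟩
    · simpa [cQ] using h2
    · simpa [cQ] using h3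
  · rintro ⟨f, s⟩ hfs
    simp only [B0, Finset.mem_filter, Finset.mem_univ, true_and] at hfs ⊢
    obtain ⟨h1, h2, h3⟩ := hfs
    obtain ⟨r1, r2⟩ := inv49_right h f L.2
    have hv : ((L.1.val + 5 * s.val : ℕ) : ZMod 25).val = L.1.val + 5 * s.val := by
      rw [ZMod.val_natCast]
      apply Nat.mod_eq_of_lt
      omega
    rw [r1, r2, hv]
    have e1 : (L.1.val + 5 * s.val) % 5 = L.1.val := by omega
    have e2 : (L.1.val + 5 * s.val) / 5 = s.val := by omega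
    rw [e1, e2]
    refine ⟨⟨h1, h2, h3⟩, ?_⟩
    apply Prod.ext
    · apply Fin.ext
      show ((L.1.val + 5 * s.val : ℕ) : ZMod 25).val % 5 = _
      rw [hv, e1]
    · apply Fin.ext
      show (inv49 h f.val L.2.val).val % 7 = _
      rw [r2]
  · rintro ⟨k, l⟩ hq
    simp only [B0, Finset.mem_filter, Finset.mem_univ, true_and] at hq
    obtain ⟨⟨h1, h2, h3⟩, h4⟩ := hq
    subst h4
    simp only [cQ]
    rw [inv49_left]
    have : k.val % 5 + 5 * (k.val / 5) = k.val := by omega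
    rw [this, ZMod.natCast_zmod_val]
  · rintro ⟨f, s⟩ hfs
    obtain ⟨r1, r2⟩ := inv49_right h f L.2
    have hv : ((L.1.val + 5 * s.val : ℕ) : ZMod 25).val = L.1.val + 5 * s.val := by
      rw [ZMod.val_natCast]
      apply Nat.mod_eq_of_lt
      omega
    apply Prod.ext
    · apply Fin.ext
      exact r1
    · apply Fin.ext
      show ((L.1.val + 5 * s.val : ℕ) : ZMod 25).val / 5 = s.val
      rw [hv]
      omega

theorem cardB1 (h : ZMod 25) (C : Fin 2 × Fin 3) (L : Fin 5 × Fin 7) :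
    ((B1 h C).filter (fun q => cQ q = L)).card = k1 (kd L) C := by
  rw [← cnt1 C L]
  refine Finset.card_bij'
    (fun q _ => ((⟨(h - q.1).val / 5, by
        have := ZMod.val_lt (h - q.1); omega⟩ : Fin 5), (⟨q.2.val / 7, by
        have := ZMod.val_lt q.2; omega⟩ : Fin 7)))
    (fun fs _ => (inv25 h fs.1.val L.1.val, ((L.2.val + 7 * fs.2.val : ℕ) : ZMod 49))) ?_ ?_ ?_ ?_
  · rintro q hq
    simp only [B1, Finset.mem_filter, Finset.mem_univ, true_and] at hq ⊢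
    obtain ⟨⟨h1, h2, h3⟩, h4⟩ := hq
    subst h4
    refine ⟨h1, ?_, ?_⟩
    · simpa [cQ] using h2
    · simpa [cQ] using h3
  · rintro ⟨f, s⟩ hfs
    simp only [B1, Finset.mem_filter, Finset.mem_univ, true_and] at hfs ⊢
    obtain ⟨h1, h2, h3⟩ := hfs
    obtain ⟨r1, r2⟩ := inv25_right h f L.1
    have hv : ((L.2.val + 7 * s.val : ℕ) : ZMod 49).val = L.2.val + 7 * s.val := by
      rw [ZMod.val_natCast]
      apply Nat.mod_eq_of_lt
      omega
    rw [r1, r2, hv]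
    have e1 : (L.2.val + 7 * s.val) % 7 = L.2.val := by omega
    have e2 : (L.2.val + 7 * s.val) / 7 = s.val := by omega
    rw [e1, e2]
    refine ⟨⟨h1, h2, h3⟩, ?_⟩
    apply Prod.ext
    · apply Fin.ext
      show (inv25 h f.val L.1.val).val % 5 = _
      rw [r2]
    · apply Fin.ext
      show ((L.2.val + 7 * s.val : ℕ) : ZMod 49).val % 7 = _
      rw [hv, e1]
  · rintro ⟨k, l⟩ hq
    simp only [B1, Finset.mem_filter, Finset.mem_univ, true_and] at hq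
    obtain ⟨⟨h1, h2, h3⟩, h4⟩ := hq
    subst h4
    simp only [cQ]
    rw [inv25_left]
    have : l.val % 7 + 7 * (l.val / 7) = l.val := by omega
    rw [this, ZMod.natCast_zmod_val]
  · rintro ⟨f, s⟩ hfs
    obtain ⟨r1, r2⟩ := inv25_right h f L.1
    have hv : ((L.2.val + 7 * s.val : ℕ) : ZMod 49).val = L.2.val + 7 * s.val := by
      rw [ZMod.val_natCast]
      apply Nat.mod_eq_of_lt
      omega
    apply Prod.ext
    · apply Fin.ext
      exact r1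
    · apply Fin.ext
      show ((L.2.val + 7 * s.val : ℕ) : ZMod 49).val / 7 = s.val
      rw [hv]
      omega

/-! ### the families tile -/

theorem memD0 (h : ZMod 9) (L : Fin 5 × Fin 7) (i : ZMod 4) (j : ZMod 9) (ab : Fin 2 × Fin 3) :
    ((i - ((ab.1 : ℕ) : ZMod 4), j - ((ab.2 : ℕ) : ZMod 9)) : P) ∈ D0 (h - ((ab.2 : ℕ) : ZMod 9)) L ↔
      d0 (kd L) (h - j).val (i - ((ab.1 : ℕ) : ZMod 4)).val (j - ((ab.2 : ℕ) : ZMod 9)).val = true := by
  simp only [D0, Finset.mem_filter, Finset.mem_univ, true_and, sub_sub_sub_cancel_right]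

theorem memD1 (h : ZMod 4) (L : Fin 5 × Fin 7) (i : ZMod 4) (j : ZMod 9) (ab : Fin 2 × Fin 3) :
    ((i - ((ab.1 : ℕ) : ZMod 4), j - ((ab.2 : ℕ) : ZMod 9)) : P) ∈ D1 (h - ((ab.1 : ℕ) : ZMod 4)) L ↔
      d1 (kd L) (h - i).val (i - ((ab.1 : ℕ) : ZMod 4)).val (j - ((ab.2 : ℕ) : ZMod 9)).val = true := by
  simp only [D1, Finset.mem_filter, Finset.mem_univ, true_and, sub_sub_sub_cancel_right]

theorem tileD0 (h : ZMod 9) (L : Fin 5 × Fin 7) (i : ZMod 4) (j : ZMod 9)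
    (hx : x2 (kd L) j.val = true) :
    ∃! ab : Fin 2 × Fin 3, ((i - ((ab.1 : ℕ) : ZMod 4), j - ((ab.2 : ℕ) : ZMod 9)) : P) ∈
      D0 (h - ((ab.2 : ℕ) : ZMod 9)) L := by
  simp only [memD0]
  apply exu_of_card
  have := chk_d0 ⟨kd L, kd_lt L⟩ (h - j) i j
  rw [if_pos hx] at this
  exact this

theorem tileD0n (h : ZMod 9) (L : Fin 5 × Fin 7) (i : ZMod 4) (j : ZMod 9)
    (hx : ¬ x2 (kd L) j.val = true) (ab : Fin 2 × Fin 3) :
    ¬ ((i - ((ab.1 : ℕ) : ZMod 4), j - ((ab.2 : ℕ) : ZMod 9)) : P) ∈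
      D0 (h - ((ab.2 : ℕ) : ZMod 9)) L := by
  rw [memD0]
  have := chk_d0 ⟨kd L, kd_lt L⟩ (h - j) i j
  rw [if_neg hx] at this
  exact no_of_card _ this ab

theorem tileD1 (h : ZMod 4) (L : Fin 5 × Fin 7) (i : ZMod 4) (j : ZMod 9)
    (hx : ¬ x2 (kd L) j.val = true) :
    ∃! ab : Fin 2 × Fin 3, ((i - ((ab.1 : ℕ) : ZMod 4), j - ((ab.2 : ℕ) : ZMod 9)) : P) ∈
      D1 (h - ((ab.1 : ℕ) : ZMod 4)) L := by
  simp only [memD1]
  apply exu_of_card
  have := chk_d1 ⟨kd L, kd_lt L⟩ (h - i) i j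
  rw [if_neg hx] at this
  exact this

theorem tileD1n (h : ZMod 4) (L : Fin 5 × Fin 7) (i : ZMod 4) (j : ZMod 9)
    (hx : x2 (kd L) j.val = true) (ab : Fin 2 × Fin 3) :
    ¬ ((i - ((ab.1 : ℕ) : ZMod 4), j - ((ab.2 : ℕ) : ZMod 9)) : P) ∈
      D1 (h - ((ab.1 : ℕ) : ZMod 4)) L := by
  rw [memD1]
  have := chk_d1 ⟨kd L, kd_lt L⟩ (h - i) i j
  rw [if_pos hx] at this
  exact no_of_card _ this ab

theorem memB0 (h : ZMod 49) (C : Fin 2 × Fin 3) (k : ZMod 25) (l : ZMod 49) (cd : Fin 5 × Fin 7) :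
    ((k - ((cd.1 : ℕ) : ZMod 25), l - ((cd.2 : ℕ) : ZMod 49)) : Q) ∈
        B0 (h - ((cd.2 : ℕ) : ZMod 49)) C ↔
      (c0 C = true ∧ (k - ((cd.1 : ℕ) : ZMod 25)).val % 5 = kb0 C ((h - l).val / 7) ∧
        (l - ((cd.2 : ℕ) : ZMod 49)).val % 7 =
          lb0 C ((h - l).val / 7) ((k - ((cd.1 : ℕ) : ZMod 25)).val / 5)) := by
  simp only [B0, Finset.mem_filter, Finset.mem_univ, true_and, sub_sub_sub_cancel_right]

theorem memB1 (h : ZMod 25) (C : Fin 2 × Fin 3) (k : ZMod 25) (l : ZMod 49) (cd : Fin 5 × Fin 7) :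
    ((k - ((cd.1 : ℕ) : ZMod 25), l - ((cd.2 : ℕ) : ZMod 49)) : Q) ∈
        B1 (h - ((cd.1 : ℕ) : ZMod 25)) C ↔
      (c0 C = false ∧ (l - ((cd.2 : ℕ) : ZMod 49)).val % 7 = lb1 ((h - k).val / 5) ∧
        (k - ((cd.1 : ℕ) : ZMod 25)).val % 5 =
          kb1 C ((h - k).val / 5) ((l - ((cd.2 : ℕ) : ZMod 49)).val / 7)) := by
  simp only [B1, Finset.mem_filter, Finset.mem_univ, true_and, sub_sub_sub_cancel_right]

theorem tileB0 (h : ZMod 49) (C : Fin 2 × Fin 3) (k : ZMod 25) (l : ZMod 49)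
    (hC : c0 C = true) :
    ∃! cd : Fin 5 × Fin 7, ((k - ((cd.1 : ℕ) : ZMod 25), l - ((cd.2 : ℕ) : ZMod 49)) : Q) ∈
        B0 (h - ((cd.2 : ℕ) : ZMod 49)) C := by
  simp only [memB0]
  have hf : (h - l).val / 7 < 7 := by
    have := ZMod.val_lt (h - l)
    omega
  obtain ⟨c, hc, hcu⟩ := exu_of_card _ (sub5 k ⟨_, kb0_lt C ⟨_, hf⟩⟩)
  have hs : (k - ((c : ℕ) : ZMod 25)).val / 5 < 5 := by
    have := ZMod.val_lt (k - ((c : ℕ) : ZMod 25))
    omega
  obtain ⟨d, hd, hdu⟩ := exu_of_card _ (sub7 l ⟨_, lb0_lt C ⟨_, hf⟩ ⟨_, hs⟩⟩)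
  refine ⟨(c, d), ⟨hC, hc, hd⟩, ?_⟩
  rintro ⟨c', d'⟩ ⟨_, h1, h2⟩
  have e1 : c' = c := hcu c' h1
  subst e1
  have e2 : d' = d := hdu d' h2
  rw [e2]

theorem tileB1 (h : ZMod 25) (C : Fin 2 × Fin 3) (k : ZMod 25) (l : ZMod 49)
    (hC : c0 C = false) :
    ∃! cd : Fin 5 × Fin 7, ((k - ((cd.1 : ℕ) : ZMod 25), l - ((cd.2 : ℕ) : ZMod 49)) : Q) ∈
        B1 (h - ((cd.1 : ℕ) : ZMod 25)) C := by
  simp only [memB1]
  have hf : (h - k).val / 5 < 5 := by
    have := ZMod.val_lt (h - k)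
    omega
  obtain ⟨d, hd, hdu⟩ := exu_of_card _ (sub7 l ⟨_, lb1_lt ⟨_, hf⟩⟩)
  have hs : (l - ((d : ℕ) : ZMod 49)).val / 7 < 7 := by
    have := ZMod.val_lt (l - ((d : ℕ) : ZMod 49))
    omega
  obtain ⟨c, hc, hcu⟩ := exu_of_card _ (sub5 k ⟨_, kb1_lt C ⟨_, hf⟩ ⟨_, hs⟩⟩)
  refine ⟨(c, d), ⟨hC, hd, hc⟩, ?_⟩
  rintro ⟨c', d'⟩ ⟨_, h1, h2⟩
  have e1 : d' = d := hdu d' h1
  subst e1
  have e2 : c' = c := hcu c' h2
  rw [e2]

/-! ### the multiples -/

theorem cQ_mul (q : Q) (cd : Fin 5 × Fin 7) :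
    cQ (q.1 - 5 * ((cd.1 : ℕ) : ZMod 25), q.2 - 7 * ((cd.2 : ℕ) : ZMod 49)) = cQ q := by
  have h5 : ∀ k : ZMod 25, ∀ c : Fin 5, (k - 5 * ((c : ℕ) : ZMod 25)).val % 5 = k.val % 5 := by
    decide +kernel
  have h7 : ∀ k : ZMod 49, ∀ c : Fin 7, (k - 7 * ((c : ℕ) : ZMod 49)).val % 7 = k.val % 7 := by
    decide +kernel
  apply Prod.ext
  · exact Fin.ext (h5 q.1 cd.1)
  · exact Fin.ext (h7 q.2 cd.2)

theorem cP_mul (p : P) (ab : Fin 2 × Fin 3) :
    cP (p.1 - 2 * ((ab.1 : ℕ) : ZMod 4), p.2 - 3 * ((ab.2 : ℕ) : ZMod 9)) = cP p := by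
  have h5 : ∀ k : ZMod 4, ∀ c : Fin 2, (k - 2 * ((c : ℕ) : ZMod 4)).val % 2 = k.val % 2 := by
    decide +kernel
  have h7 : ∀ k : ZMod 9, ∀ c : Fin 3, (k - 3 * ((c : ℕ) : ZMod 9)).val % 3 = k.val % 3 := by
    decide +kernel
  apply Prod.ext
  · exact Fin.ext (h5 p.1 ab.1)
  · exact Fin.ext (h7 p.2 ab.2)

theorem cQ_surj (q q' : Q) (h : cQ q' = cQ q) : ∃! cd : Fin 5 × Fin 7,
    ((q.1 - 5 * ((cd.1 : ℕ) : ZMod 25), q.2 - 7 * ((cd.2 : ℕ) : ZMod 49)) : Q) = q' := by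
  have e1 : q'.1.val % 5 = q.1.val % 5 := congrArg (fun z : Fin 5 × Fin 7 => z.1.val) h
  have e2 : q'.2.val % 7 = q.2.val % 7 := congrArg (fun z : Fin 5 × Fin 7 => z.2.val) h
  have h1 := mul5 q.1 q'.1
  rw [if_pos e1] at h1
  have h2 := mul7 q.2 q'.2
  rw [if_pos e2] at h2
  obtain ⟨c, hc, hcu⟩ := exu_of_card _ h1
  obtain ⟨d, hd, hdu⟩ := exu_of_card _ h2
  refine ⟨(c, d), Prod.ext hc hd, ?_⟩
  rintro ⟨c', d'⟩ hh
  exact Prod.ext (hcu c' (congrArg Prod.fst hh)) (hdu d' (congrArg Prod.snd hh))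

theorem cP_surj (p p' : P) (h : cP p' = cP p) : ∃! ab : Fin 2 × Fin 3,
    ((p.1 - 2 * ((ab.1 : ℕ) : ZMod 4), p.2 - 3 * ((ab.2 : ℕ) : ZMod 9)) : P) = p' := by
  have e1 : p'.1.val % 2 = p.1.val % 2 := congrArg (fun z : Fin 2 × Fin 3 => z.1.val) h
  have e2 : p'.2.val % 3 = p.2.val % 3 := congrArg (fun z : Fin 2 × Fin 3 => z.2.val) h
  have h1 := mul2 p.1 p'.1
  rw [if_pos e1] at h1
  have h2 := mul3 p.2 p'.2
  rw [if_pos e2] at h2
  obtain ⟨c, hc, hcu⟩ := exu_of_card _ h1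
  obtain ⟨d, hd, hdu⟩ := exu_of_card _ h2
  refine ⟨(c, d), Prod.ext hc hd, ?_⟩
  rintro ⟨c', d'⟩ hh
  exact Prod.ext (hcu c' (congrArg Prod.fst hh)) (hdu d' (congrArg Prod.snd hh))

/-! ### the row types modulo -/

theorem kap_row_true (i : Ix) : kap (row true i) =
    (((i.1 : ℕ) : ZMod 4), ((i.2.1 : ℕ) : ZMod 9), 5 * ((i.2.2.1 : ℕ) : ZMod 25),
      7 * ((i.2.2.2 : ℕ) : ZMod 49)) := by
  have a1 : (11025 : ZMod 4) = 1 := by decide
  have a2 : (34300 : ZMod 4) = 0 := by decide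
  have a3 : (15876 : ZMod 4) = 0 := by decide
  have a4 : (27000 : ZMod 4) = 0 := by decide
  have b1 : (11025 : ZMod 9) = 0 := by decide
  have b2 : (34300 : ZMod 9) = 1 := by decide
  have b3 : (15876 : ZMod 9) = 0 := by decide
  have b4 : (27000 : ZMod 9) = 0 := by decide
  have c1 : (11025 : ZMod 25) = 0 := by decide
  have c2 : (34300 : ZMod 25) = 0 := by decide
  have c3 : (15876 : ZMod 25) = 1 := by decide
  have c4 : (27000 : ZMod 25) = 0 := by decide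
  have d1 : (11025 : ZMod 49) = 0 := by decide
  have d2 : (34300 : ZMod 49) = 0 := by decide
  have d3 : (15876 : ZMod 49) = 0 := by decide
  have d4 : (27000 : ZMod 49) = 1 := by decide
  simp only [kap, row, if_true]
  push_cast
  rw [a1, a2, a3, a4, b1, b2, b3, b4, c1, c2, c3, c4, d1, d2, d3, d4]
  simp only [one_mul, zero_mul, add_zero, zero_add]

theorem kap_row_false (i : Ix) : kap (row false i) =
    (2 * ((i.1 : ℕ) : ZMod 4), 3 * ((i.2.1 : ℕ) : ZMod 9), ((i.2.2.1 : ℕ) : ZMod 25),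
      ((i.2.2.2 : ℕ) : ZMod 49)) := by
  have a1 : (11025 : ZMod 4) = 1 := by decide
  have a2 : (34300 : ZMod 4) = 0 := by decide
  have a3 : (15876 : ZMod 4) = 0 := by decide
  have a4 : (27000 : ZMod 4) = 0 := by decide
  have b1 : (11025 : ZMod 9) = 0 := by decide
  have b2 : (34300 : ZMod 9) = 1 := by decide
  have b3 : (15876 : ZMod 9) = 0 := by decide
  have b4 : (27000 : ZMod 9) = 0 := by decide
  have c1 : (11025 : ZMod 25) = 0 := by decide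
  have c2 : (34300 : ZMod 25) = 0 := by decide
  have c3 : (15876 : ZMod 25) = 1 := by decide
  have c4 : (27000 : ZMod 25) = 0 := by decide
  have d1 : (11025 : ZMod 49) = 0 := by decide
  have d2 : (34300 : ZMod 49) = 0 := by decide
  have d3 : (15876 : ZMod 49) = 0 := by decide
  have d4 : (27000 : ZMod 49) = 1 := by decide
  simp only [kap, row, Bool.false_eq_true, if_false]
  push_cast
  rw [a1, a2, a3, a4, b1, b2, b3, b4, c1, c2, c3, c4, d1, d2, d3, d4]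
  simp only [one_mul, zero_mul, add_zero, zero_add]

/-! ### assembly -/

theorem st_fin : StFin := by
  classical
  have M0e := fun (h1 : ZMod 9) (h2 : ZMod 49) => matching cP cQ (D0 h1) (B0 h2)
    (fun C L => (cardD0 h1 L C).trans (cardB0 h2 C L).symm)
  have M1e := fun (h1 : ZMod 4) (h2 : ZMod 25) => matching cP cQ (D1 h1) (B1 h2)
    (fun C L => (cardD1 h1 L C).trans (cardB1 h2 C L).symm)
  choose M0 M0a M0b M0c using M0e
  choose M1 M1a M1b M1c using M1e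
  refine ⟨{x | M0 x.1.2.1 x.1.2.2.2 (x.2.1, x.2.2.1) (x.2.2.2.1, x.2.2.2.2)},
    {x | M1 x.1.1 x.1.2.2.1 (x.2.1, x.2.2.1) (x.2.2.2.1, x.2.2.2.2)},
    fun τ => if τ then {r | x2 (kd (cQ (r.2.2.1, r.2.2.2))) r.2.1.val = true} else
      {r | c0 (cP (r.1, r.2.1)) = true}, ?_, ?_, ?_, ?_, ?_, ?_⟩
  · rintro ⟨a, b, c, d⟩ r
    simp [s0]
  · rintro ⟨a, b, c, d⟩ r
    simp [s1]
  · rintro τ ⟨h4, h9, h25, h49⟩ ⟨i, j, k, l⟩ hr
    cases τ
    · have hr' : c0 (cP (i, j)) = true := hr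
      apply reg (R := fun a b c d => ((((h4, h9, h25, h49) : K) - sh false (a, b, c, d),
        ((i, j, k, l) : K) - kap (row false (a, b, c, d))) : K × K) ∈
        {x : K × K | M0 x.1.2.1 x.1.2.2.2 (x.2.1, x.2.2.1) (x.2.2.2.1, x.2.2.2.2)})
      simp only [kap_row_false, sh, Bool.false_eq_true, if_false, Set.mem_ofPred_eq,
        Prod.mk_sub_mk, sub_zero]
      have G := glue (J1 := Fin 5 × Fin 7) (J2 := Fin 2 × Fin 3) cP
        (fun cd q p => M0 h9 (h49 - ((cd.2 : ℕ) : ZMod 49)) p q)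
        (fun cd C q => q ∈ B0 (h49 - ((cd.2 : ℕ) : ZMod 49)) C)
        (fun cd => (k - ((cd.1 : ℕ) : ZMod 25), l - ((cd.2 : ℕ) : ZMod 49)))
        (fun ab => (i - 2 * ((ab.1 : ℕ) : ZMod 4), j - 3 * ((ab.2 : ℕ) : ZMod 9)))
        (cP (i, j)) (fun ab => cP_mul (i, j) ab) (fun p' hp' => cP_surj (i, j) p' hp')
        (fun cd p hp => (M0a _ _ _ _ hp).2) (fun cd hcd => M0c _ _ _ _ hcd)
        (tileB0 h49 (cP (i, j)) k l hr')
      obtain ⟨⟨cd, ab⟩, g1, g2⟩ := G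
      refine ⟨(ab, cd), g1, ?_⟩
      rintro ⟨ab', cd'⟩ g'
      have := g2 (cd', ab') g'
      simp only [Prod.mk.injEq] at this ⊢
      tauto
    · have hr' : x2 (kd (cQ (k, l))) j.val = true := hr
      apply reg (R := fun a b c d => ((((h4, h9, h25, h49) : K) - sh true (a, b, c, d),
        ((i, j, k, l) : K) - kap (row true (a, b, c, d))) : K × K) ∈
        {x : K × K | M0 x.1.2.1 x.1.2.2.2 (x.2.1, x.2.2.1) (x.2.2.2.1, x.2.2.2.2)})
      simp only [kap_row_true, sh, if_true, Set.mem_ofPred_eq,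
        Prod.mk_sub_mk, sub_zero]
      exact glue (J1 := Fin 2 × Fin 3) (J2 := Fin 5 × Fin 7) cQ
        (fun ab p q => M0 (h9 - ((ab.2 : ℕ) : ZMod 9)) h49 p q)
        (fun ab L p => p ∈ D0 (h9 - ((ab.2 : ℕ) : ZMod 9)) L)
        (fun ab => (i - ((ab.1 : ℕ) : ZMod 4), j - ((ab.2 : ℕ) : ZMod 9)))
        (fun cd => (k - 5 * ((cd.1 : ℕ) : ZMod 25), l - 7 * ((cd.2 : ℕ) : ZMod 49)))
        (cQ (k, l)) (fun cd => cQ_mul (k, l) cd) (fun q' hq' => cQ_surj (k, l) q' hq')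
        (fun ab q hq => (M0a _ _ _ _ hq).1) (fun ab hab => M0b _ _ _ _ hab)
        (tileD0 h9 (cQ (k, l)) i j hr')
  · rintro τ ⟨h4, h9, h25, h49⟩ ⟨i, j, k, l⟩ hr ⟨a, b, c, d⟩
    cases τ
    · have hr' : ¬ c0 (cP (i, j)) = true := hr
      simp only [kap_row_false, sh, Bool.false_eq_true, if_false, Set.mem_ofPred_eq,
        Prod.mk_sub_mk, sub_zero]
      intro hM
      have h1 := (M0a _ _ _ _ hM).2
      have h2 := cP_mul (i, j) (a, b)
      simp only at h2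
      rw [h2] at h1
      have h3 := (memB0 h49 (cP (i, j)) k l (c, d)).1 h1
      exact hr' h3.1
    · have hr' : ¬ x2 (kd (cQ (k, l))) j.val = true := hr
      simp only [kap_row_true, sh, if_true, Set.mem_ofPred_eq,
        Prod.mk_sub_mk, sub_zero]
      intro hM
      have h1 := (M0a _ _ _ _ hM).1
      have h2 := cQ_mul (k, l) (c, d)
      simp only at h2
      rw [h2] at h1
      exact tileD0n h9 (cQ (k, l)) i j hr' (a, b) h1
  · rintro τ ⟨h4, h9, h25, h49⟩ ⟨i, j, k, l⟩ hr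
    cases τ
    · have hr' : ¬ c0 (cP (i, j)) = true := hr
      have hr'' : c0 (cP (i, j)) = false := by simpa using hr'
      apply reg (R := fun a b c d => ((((h4, h9, h25, h49) : K) - sh false (a, b, c, d),
        ((i, j, k, l) : K) - kap (row false (a, b, c, d))) : K × K) ∈
        {x : K × K | M1 x.1.1 x.1.2.2.1 (x.2.1, x.2.2.1) (x.2.2.2.1, x.2.2.2.2)})
      simp only [kap_row_false, sh, Bool.false_eq_true, if_false, Set.mem_ofPred_eq,
        Prod.mk_sub_mk, sub_zero]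
      have G := glue (J1 := Fin 5 × Fin 7) (J2 := Fin 2 × Fin 3) cP
        (fun cd q p => M1 h4 (h25 - ((cd.1 : ℕ) : ZMod 25)) p q)
        (fun cd C q => q ∈ B1 (h25 - ((cd.1 : ℕ) : ZMod 25)) C)
        (fun cd => (k - ((cd.1 : ℕ) : ZMod 25), l - ((cd.2 : ℕ) : ZMod 49)))
        (fun ab => (i - 2 * ((ab.1 : ℕ) : ZMod 4), j - 3 * ((ab.2 : ℕ) : ZMod 9)))
        (cP (i, j)) (fun ab => cP_mul (i, j) ab) (fun p' hp' => cP_surj (i, j) p' hp')
        (fun cd p hp => (M1a _ _ _ _ hp).2) (fun cd hcd => M1c _ _ _ _ hcd)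
        (tileB1 h25 (cP (i, j)) k l hr'')
      obtain ⟨⟨cd, ab⟩, g1, g2⟩ := G
      refine ⟨(ab, cd), g1, ?_⟩
      rintro ⟨ab', cd'⟩ g'
      have := g2 (cd', ab') g'
      simp only [Prod.mk.injEq] at this ⊢
      tauto
    · have hr' : ¬ x2 (kd (cQ (k, l))) j.val = true := hr
      apply reg (R := fun a b c d => ((((h4, h9, h25, h49) : K) - sh true (a, b, c, d),
        ((i, j, k, l) : K) - kap (row true (a, b, c, d))) : K × K) ∈
        {x : K × K | M1 x.1.1 x.1.2.2.1 (x.2.1, x.2.2.1) (x.2.2.2.1, x.2.2.2.2)})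
      simp only [kap_row_true, sh, if_true, Set.mem_ofPred_eq,
        Prod.mk_sub_mk, sub_zero]
      exact glue (J1 := Fin 2 × Fin 3) (J2 := Fin 5 × Fin 7) cQ
        (fun ab p q => M1 (h4 - ((ab.1 : ℕ) : ZMod 4)) h25 p q)
        (fun ab L p => p ∈ D1 (h4 - ((ab.1 : ℕ) : ZMod 4)) L)
        (fun ab => (i - ((ab.1 : ℕ) : ZMod 4), j - ((ab.2 : ℕ) : ZMod 9)))
        (fun cd => (k - 5 * ((cd.1 : ℕ) : ZMod 25), l - 7 * ((cd.2 : ℕ) : ZMod 49)))
        (cQ (k, l)) (fun cd => cQ_mul (k, l) cd) (fun q' hq' => cQ_surj (k, l) q' hq')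
        (fun ab q hq => (M1a _ _ _ _ hq).1) (fun ab hab => M1b _ _ _ _ hab)
        (tileD1 h4 (cQ (k, l)) i j hr')
  · rintro τ ⟨h4, h9, h25, h49⟩ ⟨i, j, k, l⟩ hr ⟨a, b, c, d⟩
    cases τ
    · have hr' : c0 (cP (i, j)) = true := hr
      simp only [kap_row_false, sh, Bool.false_eq_true, if_false, Set.mem_ofPred_eq,
        Prod.mk_sub_mk, sub_zero]
      intro hM
      have h1 := (M1a _ _ _ _ hM).2
      have h2 := cP_mul (i, j) (a, b)
      simp only at h2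
      rw [h2] at h1
      have h3 := (memB1 h25 (cP (i, j)) k l (c, d)).1 h1
      have h4 := h3.1
      rw [hr'] at h4
      exact absurd h4 (by decide)
    · have hr' : x2 (kd (cQ (k, l))) j.val = true := hr
      simp only [kap_row_true, sh, if_true, Set.mem_ofPred_eq,
        Prod.mk_sub_mk, sub_zero]
      intro hM
      have h1 := (M1a _ _ _ _ hM).1
      have h2 := cQ_mul (k, l) (c, d)
      simp only at h2
      rw [h2] at h1
      exact tileD1n h4 (cQ (k, l)) i j hr' (a, b) h1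

end Vale.Agent.P043.T2.H31
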